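import Vale.Agent.P067.Basic
import Vale.Agent.P067Y.Final

/-!
# P067: bounded degree coboundary expanders over the field with two elements, every dimension

Answer to the question of Gromov: for every dimension `d ≥ 1` there are `D` and `ε > 0` and finite
connected pure `d`-dimensional simplicial complexes with arbitrarily many vertices, of degree at
most `D`, which are `ε`-coboundary expanders.
-/

namespace Vale.Agent.Results.P067.CoboundaryExpanders

open Vale.Agent.P067

theorem result : ∀ d : ℕ, 1 ≤ d → ∃ (D : ℕ) (ε : ℝ), 0 < ε ∧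
    ∀ N : ℕ, ∃ (V : Type) (_ : Fintype V) (_ : DecidableEq V)
      (K : AbstractSimplicialComplex V),
      N ≤ Fintype.card V ∧ IsPure K d ∧
      (SimpleGraph.fromRel fun x y : V => ({x, y} : Finset V) ∈ K.faces).Connected ∧
      (∀ v : V, topDegree K d {v} ≤ D) ∧ IsCoboundaryExpander K d ε := by
  intro d hd
  obtain ⟨D, ε, hε, h⟩ := P067Y.expanders d hd
  refine ⟨D, ε, hε, fun N => ?_⟩
  obtain ⟨V, i1, i2, K, h1, h2, h3, h4, h5⟩ := h N
  refine ⟨V, i1, i2, K, h1, h2, ?_, h4, h5⟩
  have e : (SimpleGraph.fromRel fun x y : V => ({x, y} : Finset V) ∈ K.faces) =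
      Vale.Agent.P067A.edgeGraph K := by
    ext x y
    rw [SimpleGraph.fromRel_adj]
    constructor
    · rintro ⟨hne, h6 | h6⟩
      · exact ⟨hne, h6⟩
      · exact ⟨hne, by rw [Finset.pair_comm]; exact h6⟩
    · rintro ⟨hne, h6⟩
      exact ⟨hne, Or.inl h6⟩
  rw [e]
  exact h3

end Vale.Agent.Results.P067.CoboundaryExpanders
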