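import Mathlib
import Vale.Agent.P067.Euler

set_option autoImplicit false

namespace Vale.Agent.Results.P067.TopCohomology

open Finset Vale.Agent.P067

theorem result (d D : ℕ) (ε : ℝ) (_hd : 1 ≤ d) (hε : 0 < ε) :
    ∃ c : ℝ, 0 < c ∧
      ∀ (V : Type) [Fintype V] [DecidableEq V] (K : AbstractSimplicialComplex V),
        IsPure K d → (∀ v : V, topDegree K d {v} ≤ D) → IsCoboundaryExpander K d ε →
          c * (Fintype.card V : ℝ) ≤ 1 + (Module.finrank (ZMod 2) (Cohomology K d) : ℝ) ∧
          ∀ k, 1 ≤ k → k ≤ d →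
            c * (Fintype.card V : ℝ) ≤
              2 + ∑ i ∈ Finset.range (k + 1), (-1 : ℝ) ^ (k - i) * ((faceSet K i).card : ℝ) := by
  obtain ⟨c, hc, hmain⟩ := uniform_bound d D ε hε
  refine ⟨c, hc, ?_⟩
  intro V _ _ K hp hD hX
  have h1 := hmain V K hp hD hX
  refine ⟨?_, ?_⟩
  · rw [finrank_cohomology_top hp]
    exact h1 d _hd le_rfl
  · intro k hk1 hkd
    rcases isEmpty_or_nonempty V with hV | hV
    · have hcard : Fintype.card V = 0 := Fintype.card_eq_zero
      have hface : ∀ i, (faceSet K i).card = 0 := by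
        intro i
        rw [Finset.card_eq_zero]
        apply Finset.eq_empty_of_forall_notMem
        intro s hs
        have hc := ((mem_faceSet K).mp hs).2
        have hs0 : s = ∅ := Finset.eq_empty_of_isEmpty s
        rw [hs0] at hc
        simp at hc
      rw [hcard]
      simp [hface]
    · have h2 := h1 k hk1 hkd
      have h3 := finrank_quot_eq hε hp hX k hkd
      have h4 : (Module.finrank (ZMod 2) (Cochain K k ⧸ coboundaries K k) : ℝ)
          = ∑ i ∈ Finset.range (k + 1), (-1 : ℝ) ^ (k - i) * ((faceSet K i).card : ℝ)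
            - (-1) ^ k := by
        exact_mod_cast h3
      rw [h4] at h2
      have h5 : -(-1 : ℝ) ^ k ≤ 1 := by
        rcases neg_one_pow_eq_or ℝ k with h | h <;> rw [h] <;> norm_num
      linarith

end Vale.Agent.Results.P067.TopCohomology
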